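import Mathlib
import Vale.Agent.Helper14.P037BlockFinal
import Vale.Agent.Helper20.P037TwoByTwo
import Vale.Agent.Helper8.P037.GammaPoly

namespace Vale.Agent.Results.P037.AllBlockPatterns

open Finset
open Vale.Agent.Helper20

/-- The set of ordered copies of the `k × k` pattern `H` in the `n × n` binary matrix `A`:
pairs (row map, column map) of strictly increasing index maps along which `A` agrees
with `H`, zeros as well as ones. -/
noncomputable def copies {k n : ℕ} (H : Matrix (Fin k) (Fin k) Bool)
    (A : Matrix (Fin n) (Fin n) Bool) : Finset ((Fin k → Fin n) × (Fin k → Fin n)) :=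
  open Classical in
  univ.filter fun p => StrictMono p.1 ∧ StrictMono p.2 ∧ ∀ i j, A (p.1 i) (p.2 j) = H i j

/-- The number of entries in which the two `n × n` matrices differ. -/
def diff {n : ℕ} (A B : Matrix (Fin n) (Fin n) Bool) : ℕ :=
  (univ.filter fun p : Fin n × Fin n => A p.1 p.2 ≠ B p.1 p.2).card

/-- The ordered blow-up of the `2 × 2` pattern `P`: the `k × k` pattern that is constant on
the four blocks cut out by the row cut `a` and the column cut `c`, with the entries of `P`
as block values (rows `0, …, a - 1` come from row `0` of `P`, the other rows from row `1`;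
columns `0, …, c - 1` from column `0` of `P`, the other columns from column `1`). -/
def blockPattern (P : Matrix (Fin 2) (Fin 2) Bool) (k a c : ℕ) : Matrix (Fin k) (Fin k) Bool :=
  fun i j => P (if i.val < a then 0 else 1) (if j.val < c then 0 else 1)

/-- Polynomial removal bounds for every `2 × 2` binary pattern (explicit constants) and for
every ordered blow-up of a `2 × 2` pattern, of any size `k`. -/
theorem result :
    (∀ (H : Matrix (Fin 2) (Fin 2) Bool) (n : ℕ) (A : Matrix (Fin n) (Fin n) Bool) (ε : ℝ),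
      0 < ε →
      (∀ B : Matrix (Fin n) (Fin n) Bool, copies H B = ∅ →
        ε * (n : ℝ) ^ 2 ≤ (diff A B : ℝ)) →
      (1 / 10 ^ 14 : ℝ) * ε ^ 13 * (n : ℝ) ^ 4 ≤ ((copies H A).card : ℝ)) ∧
    (∀ (P : Matrix (Fin 2) (Fin 2) Bool) (k a c : ℕ), 0 < a → a < k → 0 < c → c < k →
      ∃ c0 : ℝ, 0 < c0 ∧ ∃ C : ℕ,
        ∀ (n : ℕ) (A : Matrix (Fin n) (Fin n) Bool) (ε : ℝ), 0 < ε →
          (∀ B : Matrix (Fin n) (Fin n) Bool, copies (blockPattern P k a c) B = ∅ →
            ε * (n : ℝ) ^ 2 ≤ (diff A B : ℝ)) →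
          c0 * ε ^ C * (n : ℝ) ^ (2 * k)
            ≤ ((copies (blockPattern P k a c) A).card : ℝ)) := by
  have h22 : ∀ H : Matrix (Fin 2) (Fin 2) Bool, OrdMat.PolyRemoval H (1 / 10 ^ 14) 13 :=
    OrdMat.all_two_by_two Vale.Agent.Helper8.P037.gamma_polyRemoval
      (c := 1 / 10 ^ 14) (C := 13) (by norm_num) (le_refl _) (by norm_num) (le_refl _)
      (by norm_num)
  refine ⟨?_, ?_⟩
  · intro H n A ε hε hfar
    exact h22 H n A ε hε hfar
  · intro P k a c ha hak hc hck
    obtain ⟨c0, hc0, C, hC⟩ := Helper14.P037Block.block_polyRemoval P (1 / 10 ^ 14) 13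
      (by norm_num) (h22 P) k a c ha hak hc hck
    exact ⟨c0, hc0, C, fun n A ε hε hfar => hC n A ε hε hfar⟩

end Vale.Agent.Results.P037.AllBlockPatterns
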