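import Mathlib
import Vale.Agent.Results.P037.AllBlockPatterns

namespace Vale.Agent.Results.P037.AllBlockPlain

open Finset

theorem card_copies_eq {k n : ℕ} (H : Fin k → Fin k → Bool) (A : Fin n → Fin n → Bool) :
    Nat.card {p : (Fin k → Fin n) × (Fin k → Fin n) //
        StrictMono p.1 ∧ StrictMono p.2 ∧ ∀ i j, A (p.1 i) (p.2 j) = H i j}
      = (AllBlockPatterns.copies H A).card := by
  classical
  rw [Nat.card_eq_fintype_card, Fintype.card_subtype]
  unfold AllBlockPatterns.copies
  congr 1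
  ext p
  simp only [mem_filter, mem_univ, true_and]

theorem card_diff_eq {n : ℕ} (A B : Fin n → Fin n → Bool) :
    Nat.card {p : Fin n × Fin n // A p.1 p.2 ≠ B p.1 p.2} = AllBlockPatterns.diff A B := by
  classical
  rw [Nat.card_eq_fintype_card, Fintype.card_subtype]
  unfold AllBlockPatterns.diff
  congr 1

theorem free_of_copies_empty {k n : ℕ} (H : Fin k → Fin k → Bool) (B : Fin n → Fin n → Bool)
    (h : AllBlockPatterns.copies H B = ∅) :
    ¬ ∃ ρ γ : Fin k → Fin n, StrictMono ρ ∧ StrictMono γ ∧ ∀ i j, B (ρ i) (γ j) = H i j := by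
  classical
  rintro ⟨ρ, γ, hρ, hγ, hc⟩
  have hm : (ρ, γ) ∈ AllBlockPatterns.copies H B := by
    unfold AllBlockPatterns.copies
    simp only [mem_filter, mem_univ, true_and]
    exact ⟨hρ, hγ, hc⟩
  rw [h] at hm
  exact absurd hm (notMem_empty _)

/-- Polynomial removal bounds for every `2 × 2` binary pattern (explicit constants) and for
every ordered blow-up of a `2 × 2` pattern, of any size `k`, stated without auxiliary
definitions. -/
theorem result :
    (∀ (H : Fin 2 → Fin 2 → Bool) (n : ℕ) (A : Fin n → Fin n → Bool) (ε : ℝ), 0 < ε →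
      (∀ B : Fin n → Fin n → Bool,
        (¬ ∃ ρ γ : Fin 2 → Fin n, StrictMono ρ ∧ StrictMono γ ∧
            ∀ i j, B (ρ i) (γ j) = H i j) →
        ε * (n : ℝ) ^ 2 ≤ (Nat.card {p : Fin n × Fin n // A p.1 p.2 ≠ B p.1 p.2} : ℝ)) →
      (1 / 10 ^ 14 : ℝ) * ε ^ 13 * (n : ℝ) ^ 4
        ≤ (Nat.card {p : (Fin 2 → Fin n) × (Fin 2 → Fin n) //
            StrictMono p.1 ∧ StrictMono p.2 ∧ ∀ i j, A (p.1 i) (p.2 j) = H i j} : ℝ)) ∧
    (∀ (P : Fin 2 → Fin 2 → Bool) (k a c : ℕ), 0 < a → a < k → 0 < c → c < k →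
      ∃ c0 : ℝ, 0 < c0 ∧ ∃ C : ℕ,
        ∀ (n : ℕ) (A : Fin n → Fin n → Bool) (ε : ℝ), 0 < ε →
          (∀ B : Fin n → Fin n → Bool,
            (¬ ∃ ρ γ : Fin k → Fin n, StrictMono ρ ∧ StrictMono γ ∧
                ∀ i j, B (ρ i) (γ j)
                  = P (if i.val < a then 0 else 1) (if j.val < c then 0 else 1)) →
            ε * (n : ℝ) ^ 2
              ≤ (Nat.card {p : Fin n × Fin n // A p.1 p.2 ≠ B p.1 p.2} : ℝ)) →
          c0 * ε ^ C * (n : ℝ) ^ (2 * k)
            ≤ (Nat.card {p : (Fin k → Fin n) × (Fin k → Fin n) //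
                StrictMono p.1 ∧ StrictMono p.2 ∧
                  ∀ i j, A (p.1 i) (p.2 j)
                    = P (if i.val < a then 0 else 1) (if j.val < c then 0 else 1)} : ℝ)) := by
  obtain ⟨h1, h2⟩ := AllBlockPatterns.result
  refine ⟨?_, ?_⟩
  · intro H n A ε hε hfar
    have key := h1 H n A ε hε (fun B hB => by
      have h3 := hfar B (free_of_copies_empty H B hB)
      have e := card_diff_eq A B
      rw [e] at h3
      exact h3)
    rw [card_copies_eq]
    exact key
  · intro P k a c ha hak hc hck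
    obtain ⟨c0, hc0, C, hC⟩ := h2 P k a c ha hak hc hck
    refine ⟨c0, hc0, C, ?_⟩
    intro n A ε hε hfar
    have key := hC n A ε hε (fun B hB => by
      have h3 := hfar B (free_of_copies_empty _ B hB)
      have e := card_diff_eq A B
      rw [e] at h3
      exact h3)
    have e := card_copies_eq
      (fun i j : Fin k => P (if i.val < a then 0 else 1) (if j.val < c then 0 else 1)) A
    rw [e]
    exact key

end Vale.Agent.Results.P037.AllBlockPlain
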