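import Mathlib
import Vale.Agent.Helper20.P037TwoByTwo
import Vale.Agent.Helper8.P037.GammaPoly

namespace Vale.Agent.Results.P037.AllTwoByTwo

open Finset
open Vale.Agent.Helper20

/-- The set of ordered copies of the `k × k` pattern `H` in the `n × n` binary matrix `A`:
pairs (row map, column map) of strictly increasing index maps along which `A` agrees
with `H`, zeros as well as ones. -/
noncomputable def copies {k n : ℕ} (H : Matrix (Fin k) (Fin k) Bool)
    (A : Matrix (Fin n) (Fin n) Bool) : Finset ((Fin k → Fin n) × (Fin k → Fin n)) :=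
  open Classical in
  univ.filter fun p => StrictMono p.1 ∧ StrictMono p.2 ∧ ∀ i j, A (p.1 i) (p.2 j) = H i j

/-- The number of entries in which the two `n × n` matrices differ. -/
def diff {n : ℕ} (A B : Matrix (Fin n) (Fin n) Bool) : ℕ :=
  (univ.filter fun p : Fin n × Fin n => A p.1 p.2 ≠ B p.1 p.2).card

/-- Polynomial removal bound for every `2 × 2` binary pattern. -/
theorem result : ∀ (H : Matrix (Fin 2) (Fin 2) Bool) (n : ℕ)
    (A : Matrix (Fin n) (Fin n) Bool) (ε : ℝ), 0 < ε →
    (∀ B : Matrix (Fin n) (Fin n) Bool, copies H B = ∅ →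
      ε * (n : ℝ) ^ 2 ≤ (diff A B : ℝ)) →
    (1 / 10 ^ 14 : ℝ) * ε ^ 13 * (n : ℝ) ^ 4 ≤ ((copies H A).card : ℝ) := by
  intro H n A ε hε hfar
  have h := OrdMat.all_two_by_two Vale.Agent.Helper8.P037.gamma_polyRemoval
    (c := 1 / 10 ^ 14) (C := 13) (by norm_num) (le_refl _) (by norm_num) (le_refl _)
    (by norm_num) H
  exact h n A ε hε hfar

end Vale.Agent.Results.P037.AllTwoByTwo
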