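import Vale.Agent.Helper8.P037.Bridge

namespace Vale.Agent.Results.P037.GammaPattern

open Finset
open Vale.Agent.Helper8.P037

/-- The set of ordered copies of the `k × k` pattern `H` in the `n × n` binary matrix `A`:
pairs (row map, column map) of strictly increasing index maps along which `A` agrees
with `H`, zeros as well as ones. -/
noncomputable def copies {k n : ℕ} (H : Matrix (Fin k) (Fin k) Bool)
    (A : Matrix (Fin n) (Fin n) Bool) : Finset ((Fin k → Fin n) × (Fin k → Fin n)) :=
  open Classical in
  univ.filter fun p => StrictMono p.1 ∧ StrictMono p.2 ∧ ∀ i j, A (p.1 i) (p.2 j) = H i j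

/-- The number of entries in which the two `n × n` matrices differ. -/
def diff {n : ℕ} (A B : Matrix (Fin n) (Fin n) Bool) : ℕ :=
  (univ.filter fun p : Fin n × Fin n => A p.1 p.2 ≠ B p.1 p.2).card

theorem strictMono_pair {n : ℕ} {a b : Fin n} (h : a < b) : StrictMono ![a, b] := by
  intro i j hij
  fin_cases i <;> fin_cases j
  · exact absurd hij (lt_irrefl _)
  · simpa using h
  · exact absurd hij (by decide)
  · exact absurd hij (lt_irrefl _)

theorem free_toMat {n : ℕ} (B : Fin n → Finset (Fin n))
    (hB : ∀ r r', r < r' → Compat (B r) (B r')) :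
    copies !![true, true; true, false] (toMat B) = ∅ := by
  classical
  unfold copies
  rw [filter_eq_empty_iff]
  intro p _ hp
  obtain ⟨hρ, hγ, hcopy⟩ := hp
  have h01 : (0 : Fin 2) < 1 := by decide
  have h00 := hcopy 0 0
  have h0l := hcopy 0 1
  have h10 := hcopy 1 0
  have h11 := hcopy 1 1
  simp [toMat] at h00 h0l h10 h11
  exact h11 (hB (p.1 0) (p.1 1) (hρ h01) (p.2 0) h00 (p.2 1) h0l (hγ h01) h10)

theorem quads_le_copies {n : ℕ} (A : Matrix (Fin n) (Fin n) Bool) :
    (quads (rowSet A)).card ≤ (copies !![true, true; true, false] A).card := by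
  classical
  apply card_le_card_of_injOn (fun t => (![t.1.1, t.1.2], ![t.2.1, t.2.2]))
  · intro t ht
    rw [mem_coe, quads, mem_filter] at ht
    obtain ⟨_, hr, hc, h1, h2, h3, h4⟩ := ht
    rw [mem_rowSet] at h1 h2 h3
    rw [mem_rowSet] at h4
    rw [mem_coe, copies, mem_filter]
    refine ⟨mem_univ _, strictMono_pair hr, strictMono_pair hc, ?_⟩
    intro i j
    fin_cases i <;> fin_cases j <;> simp [h1, h2, h3, h4]
  · intro t _ t' _ h
    simp only [Prod.mk.injEq] at h
    obtain ⟨hr, hc⟩ := h
    have e1 : t.1.1 = t'.1.1 := by simpa using congrFun hr 0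
    have e2 : t.1.2 = t'.1.2 := by simpa using congrFun hr 1
    have e3 : t.2.1 = t'.2.1 := by simpa using congrFun hc 0
    have e4 : t.2.2 = t'.2.2 := by simpa using congrFun hc 1
    exact Prod.ext (Prod.ext e1 e2) (Prod.ext e3 e4)

/-- **Polynomial removal lemma for the ordered pattern `[[1,1],[1,0]]`.** Let `A` be a binary
`n × n` matrix and `0 < ε < 1`. If every binary `n × n` matrix without an ordered copy of
the pattern differs from `A` in at least `ε n²` entries, then `A` contains at least
`ε¹³ n⁴ / 10¹⁴` ordered copies of the pattern. -/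
theorem result {n : ℕ} (A : Matrix (Fin n) (Fin n) Bool) (ε : ℝ) (hε : 0 < ε) (hε1 : ε < 1)
    (hfar : ∀ B : Matrix (Fin n) (Fin n) Bool, copies !![true, true; true, false] B = ∅ →
      ε * (n : ℝ) ^ 2 ≤ (diff A B : ℝ)) :
    ε ^ 13 * (n : ℝ) ^ 4 / 10 ^ 14
      ≤ ((copies !![true, true; true, false] A).card : ℝ) := by
  have h1 : ε ^ 13 * (n : ℝ) ^ 4 / 10 ^ 14 ≤ (NN (rowSet A) : ℝ) := by
    apply removal_sets (rowSet A) ε hε hε1
    intro B hB
    have := hfar (toMat B) (free_toMat B hB)
    rw [diff, dist_eq_card] at this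
    exact this
  have h2 : (NN (rowSet A) : ℝ) ≤ ((copies !![true, true; true, false] A).card : ℝ) := by
    rw [NN_eq_quads]
    exact_mod_cast quads_le_copies A
  exact h1.trans h2

end Vale.Agent.Results.P037.GammaPattern
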