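import Mathlib
import Vale.Agent.Helper20.P037Avg

namespace Vale.Agent.Results.P037.IdentityPattern

open Finset
open Vale.Agent.Helper20

/-- The set of ordered copies of the `k × k` pattern `H` in the `n × n` binary matrix `A`:
pairs (row map, column map) of strictly increasing index maps along which `A` agrees
with `H`, zeros as well as ones. -/
noncomputable def copies {k n : ℕ} (H : Matrix (Fin k) (Fin k) Bool)
    (A : Matrix (Fin n) (Fin n) Bool) : Finset ((Fin k → Fin n) × (Fin k → Fin n)) :=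
  open Classical in
  univ.filter fun p => StrictMono p.1 ∧ StrictMono p.2 ∧ ∀ i j, A (p.1 i) (p.2 j) = H i j

/-- The number of entries in which the two `n × n` matrices differ. -/
def diff {n : ℕ} (A B : Matrix (Fin n) (Fin n) Bool) : ℕ :=
  (univ.filter fun p : Fin n × Fin n => A p.1 p.2 ≠ B p.1 p.2).card

theorem copies_empty_of_IFree {n : ℕ} (B : Matrix (Fin n) (Fin n) Bool) (h : P037.IFree B) :
    copies !![true, false; false, true] B = ∅ := by
  classical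
  rw [copies, filter_eq_empty_iff]
  rintro ⟨ρ, γ⟩ - ⟨hρ, hγ, hc⟩
  refine h (ρ 0) (ρ 1) (γ 0) (γ 1) (hρ (by decide)) (hγ (by decide)) ⟨?_, ?_, ?_, ?_⟩
  · simpa using hc 0 0
  · simpa using hc 0 1
  · simpa using hc 1 0
  · simpa using hc 1 1

theorem strictMono_pair {n : ℕ} {a b : Fin n} (h : a < b) : StrictMono ![a, b] := by
  intro i j hij
  fin_cases i <;> fin_cases j
  · exact absurd hij (lt_irrefl _)
  · simpa using h
  · exact absurd hij (by decide)
  · exact absurd hij (lt_irrefl _)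

theorem Ninv_le_copies {n : ℕ} (A : Matrix (Fin n) (Fin n) Bool) :
    P037.Ninv A ≤ (copies !![true, false; false, true] A).card := by
  classical
  have h1 : P037.Ninv A = ((univ : Finset (Fin n × Fin n)).sigma
      (fun p => if p.1 < p.2 then P037.invSet A p.1 p.2 else ∅)).card := by
    rw [card_sigma, Fintype.sum_prod_type]
    unfold P037.Ninv
    apply sum_congr rfl
    intro q _
    apply sum_congr rfl
    intro r _
    split_ifs <;> simp
  rw [h1]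
  apply card_le_card_of_injOn (fun x => (![x.1.1, x.1.2], ![x.2.1, x.2.2]))
  · rintro ⟨⟨q, r⟩, ⟨c1, c2⟩⟩ hx
    rw [mem_coe, mem_sigma] at hx
    have hx2 := hx.2
    simp only at hx2
    by_cases hqr : q < r
    · rw [if_pos hqr] at hx2
      simp only [P037.invSet, mem_filter, mem_univ, true_and] at hx2
      obtain ⟨hcc, h1, h2, h3, h4⟩ := hx2
      rw [mem_coe, copies, mem_filter]
      refine ⟨mem_univ _, strictMono_pair hqr, strictMono_pair hcc, ?_⟩
      intro i j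
      fin_cases i <;> fin_cases j <;> simp [h1, h2, h3, h4]
    · rw [if_neg hqr] at hx2
      exact absurd hx2 (notMem_empty _)
  · rintro ⟨⟨q, r⟩, ⟨c1, c2⟩⟩ _ ⟨⟨q', r'⟩, ⟨c1', c2'⟩⟩ _ h
    simp only [Prod.mk.injEq] at h
    obtain ⟨h1, h2⟩ := h
    have a1 := congr_fun h1 0
    have a2 := congr_fun h1 1
    have a3 := congr_fun h2 0
    have a4 := congr_fun h2 1
    simp only [Matrix.cons_val_zero, Matrix.cons_val_one] at a1 a2 a3 a4
    subst a1 a2 a3 a4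
    rfl

theorem final_arith (e x S Wr Nr D : ℝ) (he : 0 < e) (he1 : e ≤ 1) (hx : 0 < x) (hS0 : 0 ≤ S)
    (hS8 : 8 ≤ S * e ^ 2) (hS9 : S * e ^ 2 ≤ 9) (hD : e * x ^ 2 ≤ D)
    (hmain : (S + 1) * D ^ 2 ≤ 4 * ((S + 1) * S ^ 2 * x * Wr + (S + 1) * S * Nr + x ^ 4))
    (hW : Wr ^ 2 ≤ 4 * x ^ 2 * Nr) :
    (1 / 1690000 : ℝ) * e ^ 12 * x ^ 4 ≤ Nr := by
  by_contra hcon
  push Not at hcon
  have hK : 0 < (S + 1) * (e ^ 2 * x ^ 4) := by positivity
  have hW' : Wr < 2 * (1 / 1300) * e ^ 6 * x ^ 3 := by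
    have h1 : Wr ^ 2 < (2 * (1 / 1300) * e ^ 6 * x ^ 3) ^ 2 := by
      calc Wr ^ 2 ≤ 4 * x ^ 2 * Nr := hW
        _ < 4 * x ^ 2 * (1 / 1690000 * e ^ 12 * x ^ 4) := by
            apply mul_lt_mul_of_pos_left hcon
            positivity
        _ = (2 * (1 / 1300) * e ^ 6 * x ^ 3) ^ 2 := by ring
    exact lt_of_pow_lt_pow_left₀ 2 (by positivity) h1
  have hD2 : e ^ 2 * x ^ 4 ≤ D ^ 2 := by
    have h0 : 0 ≤ e * x ^ 2 := by positivity
    calc e ^ 2 * x ^ 4 = (e * x ^ 2) ^ 2 := by ring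
      _ ≤ D ^ 2 := pow_le_pow_left₀ h0 hD 2
  have hL : (S + 1) * (e ^ 2 * x ^ 4) ≤ (S + 1) * D ^ 2 :=
    mul_le_mul_of_nonneg_left hD2 (by linarith)
  have hSe : 0 ≤ S * e ^ 2 := by positivity
  have hSe2 : (S * e ^ 2) ^ 2 ≤ 81 := by nlinarith
  have hT1 : (S + 1) * S ^ 2 * x * Wr ≤ 162 * (1 / 1300) * ((S + 1) * (e ^ 2 * x ^ 4)) := by
    calc (S + 1) * S ^ 2 * x * Wr
        ≤ (S + 1) * S ^ 2 * x * (2 * (1 / 1300) * e ^ 6 * x ^ 3) := by
          apply mul_le_mul_of_nonneg_left hW'.le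
          positivity
      _ = 2 * (1 / 1300) * ((S * e ^ 2) ^ 2 * ((S + 1) * (e ^ 2 * x ^ 4))) := by ring
      _ ≤ 2 * (1 / 1300) * (81 * ((S + 1) * (e ^ 2 * x ^ 4))) := by
          apply mul_le_mul_of_nonneg_left _ (by norm_num)
          exact mul_le_mul_of_nonneg_right hSe2 hK.le
      _ = 162 * (1 / 1300) * ((S + 1) * (e ^ 2 * x ^ 4)) := by ring
  have he10 : e ^ 10 ≤ e ^ 2 := by
    have h8 : e ^ 8 ≤ 1 := pow_le_one₀ he.le he1
    calc e ^ 10 = e ^ 2 * e ^ 8 := by ring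
      _ ≤ e ^ 2 * 1 := by
          apply mul_le_mul_of_nonneg_left h8
          positivity
      _ = e ^ 2 := by ring
  have hT2 : (S + 1) * S * Nr ≤ 9 * (1 / 1690000) * ((S + 1) * (e ^ 2 * x ^ 4)) := by
    calc (S + 1) * S * Nr ≤ (S + 1) * S * (1 / 1690000 * e ^ 12 * x ^ 4) := by
          apply mul_le_mul_of_nonneg_left hcon.le
          positivity
      _ = (1 / 1690000) * ((S * e ^ 2) * ((S + 1) * (e ^ 10 * x ^ 4))) := by ring
      _ ≤ (1 / 1690000) * (9 * ((S + 1) * (e ^ 2 * x ^ 4))) := by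
          apply mul_le_mul_of_nonneg_left _ (by norm_num)
          apply mul_le_mul hS9 _ (by positivity) (by norm_num)
          apply mul_le_mul_of_nonneg_left _ (by linarith)
          apply mul_le_mul_of_nonneg_right he10
          positivity
      _ = 9 * (1 / 1690000) * ((S + 1) * (e ^ 2 * x ^ 4)) := by ring
  have hT3 : x ^ 4 ≤ (1 / 8) * ((S + 1) * (e ^ 2 * x ^ 4)) := by
    have hx4 : 0 ≤ x ^ 4 := by positivity
    have h1 : 8 * x ^ 4 ≤ (S * e ^ 2) * x ^ 4 := mul_le_mul_of_nonneg_right hS8 hx4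
    have h2 : 0 ≤ e ^ 2 * x ^ 4 := by positivity
    nlinarith
  have hfin : (S + 1) * (e ^ 2 * x ^ 4)
      ≤ 4 * (162 * (1 / 1300) + 9 * (1 / 1690000) + 1 / 8) * ((S + 1) * (e ^ 2 * x ^ 4)) := by
    linarith
  linarith

/-- Polynomial removal bound for the `2 × 2` identity pattern. -/
theorem result : ∀ (n : ℕ) (A : Matrix (Fin n) (Fin n) Bool) (ε : ℝ), 0 < ε →
    (∀ B : Matrix (Fin n) (Fin n) Bool, copies !![true, false; false, true] B = ∅ →
      ε * (n : ℝ) ^ 2 ≤ (diff A B : ℝ)) →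
    (1 / 1690000 : ℝ) * ε ^ 12 * (n : ℝ) ^ 4
      ≤ ((copies !![true, false; false, true] A).card : ℝ) := by
  intro n A ε hε hfar
  rcases Nat.eq_zero_or_pos n with hn | hn
  · subst hn
    simp
  have hx : (0 : ℝ) < (n : ℝ) := by exact_mod_cast hn
  have he1 : ε ≤ 1 := by
    have hz := hfar (fun _ _ => false) (copies_empty_of_IFree _ (by
      intro r1 r2 c1 c2 _ _ h
      exact Bool.noConfusion h.1))
    have hd : (diff A (fun _ _ => false) : ℝ) ≤ (n : ℝ) ^ 2 := by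
      have h1 : diff A (fun _ _ => false) ≤ n * n := by
        unfold diff
        refine le_trans (card_le_univ _) ?_
        simp
      calc (diff A (fun _ _ => false) : ℝ) ≤ ((n * n : ℕ) : ℝ) := by exact_mod_cast h1
        _ = (n : ℝ) ^ 2 := by push_cast; ring
    have hx2 : 0 < (n : ℝ) ^ 2 := by positivity
    by_contra hcon
    push Not at hcon
    nlinarith
  obtain ⟨B, hB, hmain⟩ := P037.avg_main A ⌈8 / ε ^ 2⌉₊ hn
  have hD := hfar B (copies_empty_of_IFree B hB)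
  have hW := P037.Wtot_sq A
  have hN := Ninv_le_copies A
  have hdiff : P037.diff A B = diff A B := rfl
  rw [hdiff] at hmain
  have hS8 : 8 ≤ ((⌈8 / ε ^ 2⌉₊ : ℕ) : ℝ) * ε ^ 2 := by
    have h1 : 8 / ε ^ 2 ≤ ((⌈8 / ε ^ 2⌉₊ : ℕ) : ℝ) := Nat.le_ceil _
    rwa [div_le_iff₀ (by positivity)] at h1
  have hS9 : ((⌈8 / ε ^ 2⌉₊ : ℕ) : ℝ) * ε ^ 2 ≤ 9 := by
    have h1 : ((⌈8 / ε ^ 2⌉₊ : ℕ) : ℝ) < 8 / ε ^ 2 + 1 := Nat.ceil_lt_add_one (by positivity)
    have h2 : ((⌈8 / ε ^ 2⌉₊ : ℕ) : ℝ) * ε ^ 2 < (8 / ε ^ 2 + 1) * ε ^ 2 :=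
      mul_lt_mul_of_pos_right h1 (by positivity)
    have h3 : (8 / ε ^ 2 + 1) * ε ^ 2 = 8 + ε ^ 2 := by
      field_simp
    have h4 : ε ^ 2 ≤ 1 := pow_le_one₀ hε.le he1
    linarith
  have key := final_arith ε n ((⌈8 / ε ^ 2⌉₊ : ℕ) : ℝ) (P037.Wtot A) (P037.Ninv A) (diff A B)
    hε he1 hx (Nat.cast_nonneg _) hS8 hS9 hD (by exact_mod_cast hmain) (by exact_mod_cast hW)
  calc (1 / 1690000 : ℝ) * ε ^ 12 * (n : ℝ) ^ 4 ≤ (P037.Ninv A : ℝ) := key
    _ ≤ ((copies !![true, false; false, true] A).card : ℝ) := by exact_mod_cast hN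

end Vale.Agent.Results.P037.IdentityPattern
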