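import Mathlib

namespace Vale.Agent.Results.P037.LinearBound

open Finset

/-- The set of ordered copies of the `k × k` pattern `H` in the `n × n` binary matrix `A`:
pairs (row map, column map) of strictly increasing index maps along which `A` agrees
with `H`, zeros as well as ones. -/
noncomputable def copies {k n : ℕ} (H : Matrix (Fin k) (Fin k) Bool)
    (A : Matrix (Fin n) (Fin n) Bool) : Finset ((Fin k → Fin n) × (Fin k → Fin n)) :=
  open Classical in
  univ.filter fun p => StrictMono p.1 ∧ StrictMono p.2 ∧ ∀ i j, A (p.1 i) (p.2 j) = H i j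

/-- The number of entries in which the two `n × n` matrices differ. -/
def diff {n : ℕ} (A B : Matrix (Fin n) (Fin n) Bool) : ℕ :=
  (univ.filter fun p : Fin n × Fin n => A p.1 p.2 ≠ B p.1 p.2).card

theorem diff_self {n : ℕ} (A : Matrix (Fin n) (Fin n) Bool) : diff A A = 0 := by
  simp [diff]

theorem diff_triangle {n : ℕ} (A B C : Matrix (Fin n) (Fin n) Bool) :
    diff A C ≤ diff A B + diff B C := by
  unfold diff
  refine le_trans (card_le_card ?_) (card_union_le _ _)
  intro p hp
  simp only [mem_filter, mem_univ, true_and, mem_union] at hp ⊢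
  by_contra hcon
  rw [not_or, not_not, not_not] at hcon
  exact hp (hcon.1.trans hcon.2)

/-- Overwrite with the value `b` all rows in the set `R`. -/
def fillRows {n : ℕ} (A : Matrix (Fin n) (Fin n) Bool) (R : Finset (Fin n)) (b : Bool) :
    Matrix (Fin n) (Fin n) Bool :=
  fun r c => if r ∈ R then b else A r c

/-- Overwrite with the value `b` all columns in the set `C`. -/
def fillCols {n : ℕ} (A : Matrix (Fin n) (Fin n) Bool) (C : Finset (Fin n)) (b : Bool) :
    Matrix (Fin n) (Fin n) Bool :=
  fun r c => if c ∈ C then b else A r c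

theorem diff_fillRows {n : ℕ} (A : Matrix (Fin n) (Fin n) Bool) (R : Finset (Fin n))
    (b : Bool) : diff A (fillRows A R b) ≤ R.card * n := by
  unfold diff
  have : (univ.filter fun p : Fin n × Fin n => A p.1 p.2 ≠ fillRows A R b p.1 p.2)
      ⊆ R ×ˢ (univ : Finset (Fin n)) := by
    intro p hp
    rw [mem_filter] at hp
    replace hp := hp.2
    simp only [fillRows] at hp
    simp only [mem_product, mem_univ, and_true]
    by_contra hpR
    simp [hpR] at hp
  refine le_trans (card_le_card this) ?_
  simp [card_product]

theorem diff_fillCols {n : ℕ} (A : Matrix (Fin n) (Fin n) Bool) (C : Finset (Fin n))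
    (b : Bool) : diff A (fillCols A C b) ≤ C.card * n := by
  unfold diff
  have : (univ.filter fun p : Fin n × Fin n => A p.1 p.2 ≠ fillCols A C b p.1 p.2)
      ⊆ (univ : Finset (Fin n)) ×ˢ C := by
    intro p hp
    rw [mem_filter] at hp
    replace hp := hp.2
    simp only [fillCols] at hp
    simp only [mem_product, mem_univ, true_and]
    by_contra hpC
    simp [hpC] at hp
  refine le_trans (card_le_card this) ?_
  simp [card_product, mul_comm]

/-- One step: if `A` contains a copy of `H`, some matrix `A'` at distance at most `k * n`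
has strictly fewer copies, all of them copies in `A`. -/
theorem step {k n : ℕ} (hk : 0 < k) (H : Matrix (Fin k) (Fin k) Bool)
    (A : Matrix (Fin n) (Fin n) Bool) (hA : (copies H A).Nonempty) :
    ∃ A' : Matrix (Fin n) (Fin n) Bool, copies H A' ⊂ copies H A ∧ diff A A' ≤ k * n := by
  obtain ⟨⟨ρ, γ⟩, hp⟩ := hA
  simp only [copies, mem_filter, mem_univ, true_and] at hp
  obtain ⟨hρ, hγ, hcopy⟩ := hp
  by_cases hH : ∀ i, ∃ j, H i j = true
  · -- every row of `H` has a one: blank the rows of the copy
    refine ⟨fillRows A (univ.image ρ) false, ?_, ?_⟩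
    · have key : ∀ q ∈ copies H (fillRows A (univ.image ρ) false),
          ∀ i, q.1 i ∉ univ.image ρ := by
        intro q hq i hi
        simp only [copies, mem_filter, mem_univ, true_and] at hq
        obtain ⟨j, hj⟩ := hH i
        have := hq.2.2 i j
        simp [fillRows, hi, hj] at this
      constructor
      · intro q hq
        have hk' := key q hq
        simp only [copies, mem_filter, mem_univ, true_and] at hq ⊢
        refine ⟨hq.1, hq.2.1, fun i j => ?_⟩
        have := hq.2.2 i j
        simpa [fillRows, hk' i] using this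
      · intro hsub
        have hmem : (ρ, γ) ∈ copies H A := by
          simp only [copies, mem_filter, mem_univ, true_and]
          exact ⟨hρ, hγ, hcopy⟩
        exact key _ (hsub hmem) ⟨0, hk⟩ (mem_image_of_mem _ (mem_univ _))
    · refine le_trans (diff_fillRows A _ false) ?_
      refine Nat.mul_le_mul_right n ?_
      exact le_trans card_image_le (by simp)
  · -- some row of `H` is zero, so every column of `H` has a zero: fill the columns of the copy
    rw [not_forall] at hH
    obtain ⟨i₀, hi₀⟩ := hH
    rw [not_exists] at hi₀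
    refine ⟨fillCols A (univ.image γ) true, ?_, ?_⟩
    · have key : ∀ q ∈ copies H (fillCols A (univ.image γ) true),
          ∀ j, q.2 j ∉ univ.image γ := by
        intro q hq j hj
        simp only [copies, mem_filter, mem_univ, true_and] at hq
        have := hq.2.2 i₀ j
        have h0 := hi₀ j
        simp [fillCols, hj] at this
        rw [← this] at h0
        exact h0 rfl
      constructor
      · intro q hq
        have hk' := key q hq
        simp only [copies, mem_filter, mem_univ, true_and] at hq ⊢
        refine ⟨hq.1, hq.2.1, fun i j => ?_⟩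
        have := hq.2.2 i j
        simpa [fillCols, hk' j] using this
      · intro hsub
        have hmem : (ρ, γ) ∈ copies H A := by
          simp only [copies, mem_filter, mem_univ, true_and]
          exact ⟨hρ, hγ, hcopy⟩
        exact key _ (hsub hmem) ⟨0, hk⟩ (mem_image_of_mem _ (mem_univ _))
    · refine le_trans (diff_fillCols A _ true) ?_
      refine Nat.mul_le_mul_right n ?_
      exact le_trans card_image_le (by simp)

/-- Every binary `n × n` matrix `A` can be made `H`-free by changing at most
`k * n * N_H(A)` entries. -/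
theorem exists_free {k n : ℕ} (hk : 0 < k) (H : Matrix (Fin k) (Fin k) Bool) :
    ∀ (m : ℕ) (A : Matrix (Fin n) (Fin n) Bool), (copies H A).card = m →
      ∃ B : Matrix (Fin n) (Fin n) Bool, copies H B = ∅ ∧ diff A B ≤ k * n * m := by
  intro m
  induction m using Nat.strong_induction_on with
  | _ m ih =>
    intro A hA
    by_cases hne : (copies H A).Nonempty
    · obtain ⟨A', hsub, hd⟩ := step hk H A hne
      have hlt : (copies H A').card < m := hA ▸ card_lt_card hsub
      obtain ⟨B, hB, hdB⟩ := ih _ hlt A' rfl
      refine ⟨B, hB, le_trans (diff_triangle A A' B) ?_⟩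
      have h1 : (copies H A').card + 1 ≤ m := hlt
      calc diff A A' + diff A' B ≤ k * n + k * n * (copies H A').card := Nat.add_le_add hd hdB
        _ = k * n * ((copies H A').card + 1) := by ring
        _ ≤ k * n * m := Nat.mul_le_mul_left _ h1
    · rw [not_nonempty_iff_eq_empty] at hne
      exact ⟨A, hne, by simp [diff_self]⟩

/-- **Linear removal bound for every pattern.** Let `H` be a binary `k × k` pattern (`k ≥ 1`)
and `A` a binary `n × n` matrix that is `ε`-far from `H`-free, in the sense that every
`H`-free `n × n` matrix differs from `A` in at least `ε * n ^ 2` entries. Then `A` contains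
at least `ε * n / k` ordered copies of `H`. -/
theorem result {k n : ℕ} (hk : 0 < k) (H : Matrix (Fin k) (Fin k) Bool)
    (A : Matrix (Fin n) (Fin n) Bool) (ε : ℝ)
    (hfar : ∀ B : Matrix (Fin n) (Fin n) Bool, copies H B = ∅ → ε * (n : ℝ) ^ 2 ≤ (diff A B : ℝ)) :
    ε * (n : ℝ) / (k : ℝ) ≤ ((copies H A).card : ℝ) := by
  obtain ⟨B, hB, hd⟩ := exists_free hk H (copies H A).card A rfl
  have h1 := hfar B hB
  have h2 : (diff A B : ℝ) ≤ (k : ℝ) * (n : ℝ) * ((copies H A).card : ℝ) := by
    exact_mod_cast hd
  have hk' : (0 : ℝ) < (k : ℝ) := by exact_mod_cast hk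
  rw [div_le_iff₀ hk']
  rcases Nat.eq_zero_or_pos n with hn | hn
  · subst hn
    simp
    positivity
  · have hn' : (0 : ℝ) < (n : ℝ) := by exact_mod_cast hn
    have h3 : ε * (n : ℝ) ^ 2 ≤ (k : ℝ) * (n : ℝ) * ((copies H A).card : ℝ) := le_trans h1 h2
    have h4 : (ε * (n : ℝ)) * (n : ℝ) ≤ (((copies H A).card : ℝ) * (k : ℝ)) * (n : ℝ) := by
      nlinarith [h3]
    exact le_of_mul_le_mul_right h4 hn'

end Vale.Agent.Results.P037.LinearBound
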